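import Mathlib

namespace Vale.Agent.P072

/-- A complex on `d` species: a vector of nonnegative integers. -/
abbrev Cplx (d : ℕ) := Fin d → ℕ

/-- The reaction vector `y' - y` of a reaction `(y, y')`, as a real vector. -/
def rvec {d : ℕ} (r : Cplx d × Cplx d) : Fin d → ℝ := fun i => (r.2 i : ℝ) - (r.1 i : ℝ)

/-- The monomial `x ^ y = ∏ i, x i ^ y i`. -/
def mono {d : ℕ} (x : Fin d → ℝ) (y : Cplx d) : ℝ := ∏ i, x i ^ y i

/-- A finite reaction network: a finite set `C` of complexes and a finite set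
`R` of reactions `(y, y')` with `y, y'` in `C` and `y ≠ y'`. -/
structure Network (d : ℕ) where
  C : Finset (Cplx d)
  R : Finset (Cplx d × Cplx d)
  sub : ∀ r ∈ R, r.1 ∈ C ∧ r.2 ∈ C ∧ r.1 ≠ r.2

/-- Weak reversibility: for every reaction `y → y'` there is a directed path from `y'` to `y`. -/
def Network.WeaklyReversible {d : ℕ} (N : Network d) : Prop :=
  ∀ r ∈ N.R, Relation.ReflTransGen (fun a b => (a, b) ∈ N.R) r.2 r.1

/-- The mass-action vector field `f x = ∑ k_(y → y') x ^ y (y' - y)`. -/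
def Network.field {d : ℕ} (N : Network d) (k : Cplx d × Cplx d → ℝ) (x : Fin d → ℝ) :
    Fin d → ℝ :=
  ∑ r ∈ N.R, (k r * mono x r.1) • rvec r

/-- The stoichiometric subspace: the real span of the reaction vectors. -/
def Network.stoich {d : ℕ} (N : Network d) : Submodule ℝ (Fin d → ℝ) :=
  Submodule.span ℝ (rvec '' (N.R : Set (Cplx d × Cplx d)))

/-- The positive stoichiometric class of `c`. -/
def Network.posClass {d : ℕ} (N : Network d) (c : Fin d → ℝ) : Set (Fin d → ℝ) :=
  {x | (∀ i, 0 < x i) ∧ x - c ∈ N.stoich}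

/-- Coordinatewise logarithm. -/
noncomputable def logv {d : ℕ} (x : Fin d → ℝ) : Fin d → ℝ := fun i => Real.log (x i)

end Vale.Agent.P072
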