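import Vale.Agent.P072.Key

namespace Vale.Agent.P072
open Filter Topology

variable {d : ℕ}

/-- Uniform a priori bound in logarithmic coordinates for all positive equilibria in a class,
uniformly for rate constants in `[ε, 1/ε]`. -/
lemma log_bounded (N : Network d) (hN : N.WeaklyReversible) (c : Fin d → ℝ) (hc : ∀ i, 0 < c i)
    {ε : ℝ} (hε : 0 < ε) :
    ∃ B : ℝ, ∀ x ∈ N.posClass c,
      (∃ k : Cplx d × Cplx d → ℝ, (∀ r ∈ N.R, ε ≤ k r ∧ k r ≤ ε⁻¹) ∧ N.field k x = 0) →
      ∀ i, |Real.log (x i)| ≤ B := by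
  by_contra h
  have h' : ∀ n : ℕ, ∃ x ∈ N.posClass c,
      (∃ k : Cplx d × Cplx d → ℝ, (∀ r ∈ N.R, ε ≤ k r ∧ k r ≤ ε⁻¹) ∧ N.field k x = 0) ∧
      ∃ i, (n : ℝ) < |Real.log (x i)| := by
    intro n
    by_contra hn
    refine h ⟨n, fun x hx hk i => ?_⟩
    by_contra hi
    exact hn ⟨x, hx, hk, i, not_le.1 hi⟩
  choose x hxP hxk hxi using h'
  set u : ℕ → Fin d → ℝ := fun n i => Real.log (x n i) with hu
  set s : ℕ → ℝ := fun n => ‖u n‖ with hs
  have hsn : ∀ n : ℕ, (n : ℝ) < s n := by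
    intro n
    obtain ⟨i, hi⟩ := hxi n
    refine lt_of_lt_of_le hi ?_
    have := norm_le_pi_norm (u n) i
    simpa [hu, Real.norm_eq_abs] using this
  have hspos : ∀ n, 0 < s n := fun n => lt_of_le_of_lt (Nat.cast_nonneg n) (hsn n)
  have hstend : Tendsto s atTop atTop :=
    tendsto_atTop_mono (fun n => (hsn n).le) tendsto_natCast_atTop_atTop
  set b : ℕ → Fin d → ℝ := fun n => (s n)⁻¹ • u n with hb
  have hbs : ∀ n, b n ∈ Metric.sphere (0 : Fin d → ℝ) 1 := by
    intro n
    rw [mem_sphere_zero_iff_norm, hb]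
    simp only [norm_smul, norm_inv, Real.norm_eq_abs, abs_of_pos (hspos n)]
    exact inv_mul_cancel₀ (hspos n).ne'
  obtain ⟨a, ha, φ, hφ, hlim⟩ := (isCompact_sphere (0 : Fin d → ℝ) 1).tendsto_subseq hbs
  have hane : a ≠ 0 := by
    intro h0
    rw [mem_sphere_zero_iff_norm, h0, norm_zero] at ha
    exact zero_ne_one ha
  have hs' : Tendsto (s ∘ φ) atTop atTop := hstend.comp hφ.tendsto_atTop
  have hxexp : ∀ n, (fun j => Real.exp ((s ∘ φ) n * (b ∘ φ) n j)) = x (φ n) := by
    intro n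
    funext j
    simp only [Function.comp, hb, Pi.smul_apply, smul_eq_mul]
    rw [mul_inv_cancel_left₀ (hspos _).ne']
    exact Real.exp_log ((hxP (φ n)).1 j)
  by_cases hcase : ∃ r ∈ N.R, hgt a r.2 ≠ hgt a r.1
  · have hev := eventually_dot_field_neg N hN hs' hlim hcase hε
    obtain ⟨n, hn⟩ := hev.exists
    obtain ⟨k, hk, hk0⟩ := hxk (φ n)
    have := hn k hk
    rw [hxexp n, hk0] at this
    simp at this
  · have hcase' : ∀ r ∈ N.R, hgt a r.2 = hgt a r.1 := by
      intro r hr
      by_contra hne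
      exact hcase ⟨r, hr, hne⟩
    have hconst : ∀ n, ∑ i, a i * Real.exp ((s ∘ φ) n * (b ∘ φ) n i) = ∑ i, a i * c i := by
      intro n
      have h0 := dot_stoich_eq_zero N a hcase' (hxP (φ n)).2
      have h1 : ∀ i, Real.exp ((s ∘ φ) n * (b ∘ φ) n i) = x (φ n) i := fun i =>
        congrFun (hxexp n) i
      simp only [h1]
      simp only [Pi.sub_apply, mul_sub, Finset.sum_sub_distrib] at h0
      linarith
    by_cases hpos : ∃ i, 0 < a i
    · have ht := tendsto_dot_exp_atTop hs' hlim hpos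
      simp only [hconst] at ht
      exact not_tendsto_const_atTop _ _ ht
    · have hneg : ∀ i, a i ≤ 0 := fun i => not_lt.1 fun hi => hpos ⟨i, hi⟩
      have ht := tendsto_dot_exp_zero hs' hlim hneg
      simp only [hconst] at ht
      have h0 : ∑ i, a i * c i = 0 := tendsto_nhds_unique tendsto_const_nhds ht
      have := dot_neg_of_nonpos hneg hane hc
      linarith

lemma continuous_field_joint (N : Network d) :
    Continuous fun p : (Cplx d × Cplx d → ℝ) × (Fin d → ℝ) => N.field p.1 p.2 := by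
  unfold Network.field mono
  fun_prop

/-- The set of points of a positive stoichiometric class which are equilibria for some
rate vector with entries in `[ε, 1/ε]` is compact. -/
theorem isCompact_equilibria_uniform (N : Network d) (hN : N.WeaklyReversible) (c : Fin d → ℝ)
    (hc : ∀ i, 0 < c i) {ε : ℝ} (hε : 0 < ε) :
    IsCompact {x | x ∈ N.posClass c ∧
      ∃ k : Cplx d × Cplx d → ℝ, (∀ r ∈ N.R, ε ≤ k r ∧ k r ≤ ε⁻¹) ∧ N.field k x = 0} := by
  classical
  obtain ⟨B, hB⟩ := log_bounded N hN c hc hε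
  set K : Set (Cplx d × Cplx d → ℝ) :=
    Set.pi Set.univ (fun r => if r ∈ N.R then Set.Icc ε ε⁻¹ else {0}) with hK
  have hKc : IsCompact K := by
    refine isCompact_univ_pi fun r => ?_
    split_ifs
    · exact isCompact_Icc
    · exact isCompact_singleton
  set box : Set (Fin d → ℝ) := Set.Icc (fun _ => Real.exp (-B)) (fun _ => Real.exp B) with hbox
  have hboxc : IsCompact box := isCompact_Icc
  set Z : Set ((Cplx d × Cplx d → ℝ) × (Fin d → ℝ)) :=
    (K ×ˢ box) ∩ {p | p.2 - c ∈ N.stoich ∧ N.field p.1 p.2 = 0} with hZ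
  have hclosed : IsClosed {p : (Cplx d × Cplx d → ℝ) × (Fin d → ℝ) |
      p.2 - c ∈ N.stoich ∧ N.field p.1 p.2 = 0} := by
    have h1 : IsClosed {p : (Cplx d × Cplx d → ℝ) × (Fin d → ℝ) | p.2 - c ∈ N.stoich} := by
      have hS : IsClosed (N.stoich : Set (Fin d → ℝ)) := Submodule.closed_of_finiteDimensional _
      exact hS.preimage (by fun_prop : Continuous fun p :
        (Cplx d × Cplx d → ℝ) × (Fin d → ℝ) => p.2 - c)
    have h2 : IsClosed {p : (Cplx d × Cplx d → ℝ) × (Fin d → ℝ) | N.field p.1 p.2 = 0} :=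
      isClosed_eq (continuous_field_joint N) continuous_const
    exact h1.inter h2
  have hZc : IsCompact Z := (hKc.prod hboxc).inter_right hclosed
  have himg : {x | x ∈ N.posClass c ∧
      ∃ k : Cplx d × Cplx d → ℝ, (∀ r ∈ N.R, ε ≤ k r ∧ k r ≤ ε⁻¹) ∧ N.field k x = 0}
      = Prod.snd '' Z := by
    ext x
    constructor
    · rintro ⟨hxP, k, hk, hk0⟩
      refine ⟨(fun r => if r ∈ N.R then k r else 0, x), ⟨⟨?_, ?_⟩, hxP.2, ?_⟩, rfl⟩
      · intro r _
        by_cases hr : r ∈ N.R
        · simp only [hr, if_true]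
          exact ⟨(hk r hr).1, (hk r hr).2⟩
        · simp [hr]
      · have hb := hB x hxP ⟨k, hk, hk0⟩
        constructor
        · intro i
          have h1 := (abs_le.1 (hb i)).1
          have := Real.exp_le_exp.2 h1
          rwa [Real.exp_log (hxP.1 i)] at this
        · intro i
          have h1 := (abs_le.1 (hb i)).2
          have := Real.exp_le_exp.2 h1
          rwa [Real.exp_log (hxP.1 i)] at this
      · rw [← hk0]
        unfold Network.field
        refine Finset.sum_congr rfl fun r hr => ?_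
        simp [hr]
    · rintro ⟨⟨k, y⟩, ⟨⟨hkK, hybox⟩, hyS, hy0⟩, rfl⟩
      refine ⟨⟨fun i => ?_, hyS⟩, k, fun r hr => ?_, hy0⟩
      · exact lt_of_lt_of_le (Real.exp_pos _) (hybox.1 i)
      · have := hkK r (Set.mem_univ r)
        simp only [hr, if_true] at this
        exact ⟨this.1, this.2⟩
  rw [himg]
  exact hZc.image continuous_snd

/-- For fixed positive rate constants, the set of positive equilibria in a positive
stoichiometric class is compact. -/
theorem isCompact_equilibria (N : Network d) (hN : N.WeaklyReversible)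
    (k : Cplx d × Cplx d → ℝ) (hk : ∀ r ∈ N.R, 0 < k r) (c : Fin d → ℝ) (hc : ∀ i, 0 < c i) :
    IsCompact {x | x ∈ N.posClass c ∧ N.field k x = 0} := by
  classical
  set M : ℝ := 1 + ∑ r ∈ N.R, (k r + (k r)⁻¹) with hM
  have hterm : ∀ r ∈ N.R, 0 ≤ k r + (k r)⁻¹ := fun r hr => by
    have := hk r hr
    positivity
  have hMge : ∀ r ∈ N.R, k r + (k r)⁻¹ ≤ M := fun r hr => by
    have := Finset.single_le_sum (f := fun r => k r + (k r)⁻¹) hterm hr
    simp only [hM]
    linarith
  have hMpos : 0 < M := by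
    have := Finset.sum_nonneg hterm
    simp only [hM]
    linarith
  have hεk : ∀ r ∈ N.R, M⁻¹ ≤ k r ∧ k r ≤ M⁻¹⁻¹ := by
    intro r hr
    have hkr := hk r hr
    have hinv : 0 < (k r)⁻¹ := inv_pos.2 hkr
    have h1 := hMge r hr
    constructor
    · rw [inv_le_comm₀ hMpos hkr]
      linarith
    · rw [inv_inv]
      linarith
  have hcomp := isCompact_equilibria_uniform N hN c hc (inv_pos.2 hMpos)
  have hclosed : IsClosed {x : Fin d → ℝ | N.field k x = 0} := by
    have hcont : Continuous fun x : Fin d → ℝ => N.field k x :=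
      (continuous_field_joint N).comp (by fun_prop : Continuous fun x : Fin d → ℝ => (k, x))
    exact isClosed_eq hcont continuous_const
  have heq : {x | x ∈ N.posClass c ∧ N.field k x = 0}
      = {x | x ∈ N.posClass c ∧ ∃ k : Cplx d × Cplx d → ℝ,
          (∀ r ∈ N.R, M⁻¹ ≤ k r ∧ k r ≤ M⁻¹⁻¹) ∧ N.field k x = 0} ∩ {x | N.field k x = 0} := by
    ext x
    constructor
    · rintro ⟨h1, h2⟩
      exact ⟨⟨h1, k, hεk, h2⟩, h2⟩
    · rintro ⟨⟨h1, _⟩, h2⟩
      exact ⟨h1, h2⟩
  rw [heq]
  exact hcomp.inter_right hclosed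

end Vale.Agent.P072
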