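import Vale.Agent.P072.Key

namespace Vale.Agent.P072
open Filter Topology

variable {d : ℕ}

theorem no_directional_escape (N : Network d) (hN : N.WeaklyReversible) {ε : ℝ} (hε : 0 < ε)
    (k : ℝ → Cplx d × Cplx d → ℝ) (J : Set ℝ) (hJ : J.OrdConnected) (hJne : J.Nonempty)
    (hk : ∀ t ∈ J, ∀ r ∈ N.R, ε ≤ k t r ∧ k t r ≤ ε⁻¹)
    (x : ℝ → Fin d → ℝ) (hpos : ∀ t ∈ J, ∀ i, 0 < x t i)
    (hsol : ∀ t ∈ J, HasDerivWithinAt x (N.field (k t) (x t)) J t)
    (hesc : Tendsto (fun t : J => ‖logv (x t)‖) atTop atTop)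
    (a : Fin d → ℝ)
    (hdir : Tendsto (fun t : J => ‖logv (x t)‖⁻¹ • logv (x t)) atTop (𝓝 a)) : False := by
  classical
  have : Nonempty J := hJne.to_subtype
  set s : J → ℝ := fun t => ‖logv (x t)‖ with hs
  set b : J → Fin d → ℝ := fun t => ‖logv (x t)‖⁻¹ • logv (x t) with hb
  have hxexp : ∀ t : J, (fun j => Real.exp (s t * b t j)) = x t := by
    intro t
    funext j
    have h1 : s t * b t j = logv (x t) j := by
      simp only [hs, hb, Pi.smul_apply, smul_eq_mul]
      by_cases h0 : ‖logv (x t)‖ = 0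
      · have : logv (x t) = 0 := norm_eq_zero.1 h0
        simp [this]
      · rw [mul_inv_cancel_left₀ h0]
    rw [h1]
    exact Real.exp_log (hpos t t.2 j)
  -- the limit direction is a unit vector
  have hane : a ≠ 0 := by
    have h1 : Tendsto (fun t : J => ‖b t‖) atTop (𝓝 ‖a‖) := hdir.norm
    have h2 : ∀ᶠ t : J in atTop, ‖b t‖ = 1 := by
      filter_upwards [hesc.eventually_gt_atTop 0] with t ht
      simp only [hb, norm_smul, norm_inv, norm_norm]
      exact inv_mul_cancel₀ ht.ne'
    have h3 : Tendsto (fun t : J => ‖b t‖) atTop (𝓝 1) :=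
      tendsto_const_nhds.congr' (h2.mono fun t ht => ht.symm)
    have h4 : ‖a‖ = 1 := tendsto_nhds_unique h1 h3
    intro h0
    rw [h0, norm_zero] at h4
    exact zero_ne_one h4
  -- the linear functional g
  set g : ℝ → ℝ := fun t => ∑ i, a i * x t i with hg
  have hgder : ∀ t ∈ J, HasDerivWithinAt g (∑ i, a i * N.field (k t) (x t) i) J t := by
    intro t ht
    have h1 := hasDerivWithinAt_pi.1 (hsol t ht)
    exact HasDerivWithinAt.fun_sum fun i _ => (h1 i).const_mul (a i)
  -- eventually the derivative is nonpositive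
  have hev : ∀ᶠ t : J in atTop, ∑ i, a i * N.field (k t) (x t) i ≤ 0 := by
    by_cases hcase : ∃ r ∈ N.R, hgt a r.2 ≠ hgt a r.1
    · have := eventually_dot_field_neg N hN hesc hdir hcase hε
      filter_upwards [this] with t ht
      have h1 := ht (k t) (hk t t.2)
      rw [hxexp t] at h1
      exact h1.le
    · have hcase' : ∀ r ∈ N.R, hgt a r.2 = hgt a r.1 := by
        intro r hr
        by_contra hne
        exact hcase ⟨r, hr, hne⟩
      exact Eventually.of_forall fun t => (dot_field_eq_zero N _ a _ hcase').le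
  obtain ⟨t0, ht0⟩ := eventually_atTop.1 hev
  set D : Set ℝ := J ∩ Set.Ici (t0 : ℝ) with hD
  have hDconv : Convex ℝ D := (hJ.inter Set.ordConnected_Ici).convex
  have hanti : AntitoneOn g D := by
    refine antitoneOn_of_deriv_nonpos hDconv ?_ ?_ ?_
    · intro t ht
      exact ((hgder t ht.1).continuousWithinAt).mono Set.inter_subset_left
    · intro t ht
      have hmem : J ∈ 𝓝 t := mem_of_superset (mem_interior_iff_mem_nhds.1 ht) Set.inter_subset_left
      have htJ : t ∈ J := (interior_subset ht).1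
      exact ((hgder t htJ).hasDerivAt hmem).differentiableAt.differentiableWithinAt
    · intro t ht
      have hmem : J ∈ 𝓝 t := mem_of_superset (mem_interior_iff_mem_nhds.1 ht) Set.inter_subset_left
      have htJ : t ∈ J := (interior_subset ht).1
      rw [((hgder t htJ).hasDerivAt hmem).deriv]
      exact ht0 ⟨t, htJ⟩ (interior_subset ht).2
  have hle : ∀ t : J, t0 ≤ t → g t ≤ g t0 := by
    intro t ht
    exact hanti ⟨t0.2, Set.self_mem_Ici⟩ ⟨t.2, ht⟩ ht
  have hgexp : ∀ t : J, ∑ i, a i * Real.exp (s t * b t i) = g t := by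
    intro t
    have h1 : ∀ i, Real.exp (s t * b t i) = x t i := fun i => congrFun (hxexp t) i
    simp only [h1, hg]
  by_cases hposa : ∃ i, 0 < a i
  · have ht := tendsto_dot_exp_atTop hesc hdir hposa
    simp only [hgexp] at ht
    obtain ⟨t, h1, h2⟩ := ((ht.eventually_gt_atTop (g t0)).and (eventually_ge_atTop t0)).exists
    exact absurd (hle t h2) (not_le.2 h1)
  · have hneg : ∀ i, a i ≤ 0 := fun i => not_lt.1 fun hi => hposa ⟨i, hi⟩
    have ht := tendsto_dot_exp_zero hesc hdir hneg
    simp only [hgexp] at ht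
    have h0 : (0 : ℝ) ≤ g t0 :=
      le_of_tendsto ht ((eventually_ge_atTop t0).mono fun t h => hle t h)
    have := dot_neg_of_nonpos hneg hane (hpos t0 t0.2)
    simp only [hg] at h0
    linarith

end Vale.Agent.P072
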