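import Vale.Agent.P072.Defs

namespace Vale.Agent.P072
open Filter Topology

variable {d : ℕ}

/-- height of a complex in direction `a` -/
def hgt (a : Fin d → ℝ) (y : Cplx d) : ℝ := ∑ i, a i * (y i : ℝ)

lemma dot_rvec (a : Fin d → ℝ) (r : Cplx d × Cplx d) :
    ∑ i, a i * rvec r i = hgt a r.2 - hgt a r.1 := by
  simp [rvec, hgt, mul_sub, Finset.sum_sub_distrib]

lemma exists_desc (N : Network d) (a : Fin d → ℝ) {u w : Cplx d}
    (h : Relation.ReflTransGen (fun p q => (p, q) ∈ N.R) u w) (hlt : hgt a w < hgt a u) :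
    ∃ r ∈ N.R, hgt a u ≤ hgt a r.1 ∧ hgt a r.2 < hgt a r.1 := by
  induction h using Relation.ReflTransGen.head_induction_on with
  | refl => exact absurd hlt (lt_irrefl _)
  | @head p q h' _ ih =>
    by_cases hq : hgt a q < hgt a p
    · exact ⟨(p, q), h', le_refl _, hq⟩
    · have hq := not_lt.1 hq
      obtain ⟨r, hr, h1, h2⟩ := ih (lt_of_lt_of_le hlt hq)
      exact ⟨r, hr, hq.trans h1, h2⟩

lemma mono_exp (u : Fin d → ℝ) (y : Cplx d) :
    mono (fun i => Real.exp (u i)) y = Real.exp (hgt u y) := by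
  unfold mono hgt
  rw [Real.exp_sum]
  refine Finset.prod_congr rfl fun i _ => ?_
  rw [mul_comm, Real.exp_nat_mul]

lemma hgt_smul (s : ℝ) (b : Fin d → ℝ) (y : Cplx d) :
    hgt (fun j => s * b j) y = s * hgt b y := by
  unfold hgt
  rw [Finset.mul_sum]
  refine Finset.sum_congr rfl fun i _ => ?_
  ring

lemma dot_field (N : Network d) (k : Cplx d × Cplx d → ℝ) (a x : Fin d → ℝ) :
    ∑ i, a i * N.field k x i
      = ∑ r ∈ N.R, k r * mono x r.1 * (hgt a r.2 - hgt a r.1) := by
  unfold Network.field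
  simp only [Finset.sum_apply, Pi.smul_apply, smul_eq_mul, Finset.mul_sum]
  rw [Finset.sum_comm]
  refine Finset.sum_congr rfl fun r _ => ?_
  rw [← dot_rvec, Finset.mul_sum]
  refine Finset.sum_congr rfl fun i _ => ?_
  ring

lemma tendsto_hgt {α : Type*} {l : Filter α} {b : α → Fin d → ℝ} {a : Fin d → ℝ}
    (hb : Tendsto b l (𝓝 a)) (y : Cplx d) :
    Tendsto (fun t => hgt (b t) y) l (𝓝 (hgt a y)) := by
  unfold hgt
  refine tendsto_finsetSum _ fun i _ => ?_
  exact ((tendsto_pi_nhds.1 hb) i).mul_const _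

/-- Key lemma A: along any family of points `exp (s b)` with `s → ∞`, `b → a`, where `a` is not
orthogonal to all reaction vectors, the field eventually points strictly against `a`,
uniformly for rate constants in `[ε, 1/ε]`. -/
lemma eventually_dot_field_neg (N : Network d) (hN : N.WeaklyReversible) {α : Type*}
    {l : Filter α} {s : α → ℝ} {b : α → Fin d → ℝ} {a : Fin d → ℝ}
    (hs : Tendsto s l atTop) (hb : Tendsto b l (𝓝 a))
    (hne : ∃ r ∈ N.R, hgt a r.2 ≠ hgt a r.1) {ε : ℝ} (hε : 0 < ε) :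
    ∀ᶠ t in l, ∀ k : Cplx d × Cplx d → ℝ, (∀ r ∈ N.R, ε ≤ k r ∧ k r ≤ ε⁻¹) →
      ∑ i, a i * N.field k (fun j => Real.exp (s t * b t j)) i < 0 := by
  classical
  set γ : Cplx d × Cplx d → ℝ := fun r => hgt a r.2 - hgt a r.1 with hγ
  set m : α → Cplx d → ℝ := fun t y => Real.exp (s t * hgt (b t) y) with hm
  have hmpos : ∀ t y, 0 < m t y := fun t y => Real.exp_pos _
  set Q : α → ℝ := fun t => ∑ r ∈ N.R, max (-γ r) 0 * m t r.1 with hQ
  set c : ℝ := (N.R.card : ℝ) + 1 with hc
  have hcpos : 0 < c := by positivity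
  -- for every ascending reaction there is a higher descending one
  have hasc : ∀ r ∈ N.R, 0 < γ r → ∃ r' ∈ N.R, hgt a r.1 < hgt a r'.1 ∧ γ r' < 0 := by
    intro r hr hpos
    have hlt : hgt a r.1 < hgt a r.2 := by simpa [hγ] using hpos
    obtain ⟨r', hr', h1, h2⟩ := exists_desc N a (hN r hr) hlt
    exact ⟨r', hr', lt_of_lt_of_le hlt h1, by simpa [hγ] using h2⟩
  -- a descending reaction exists
  obtain ⟨r0, hr0, hγ0⟩ : ∃ r0 ∈ N.R, γ r0 < 0 := by
    obtain ⟨r, hr, hne'⟩ := hne
    rcases lt_or_gt_of_ne hne' with h | h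
    · exact ⟨r, hr, by simpa [hγ] using h⟩
    · obtain ⟨r', hr', _, h2⟩ := hasc r hr (by simpa [hγ] using h)
      exact ⟨r', hr', h2⟩
  have hterm_nonneg : ∀ t, ∀ r ∈ N.R, 0 ≤ max (-γ r) 0 * m t r.1 := fun t r _ =>
    mul_nonneg (le_max_right _ _) (hmpos t _).le
  have hQge : ∀ t, ∀ r ∈ N.R, max (-γ r) 0 * m t r.1 ≤ Q t := fun t r hr =>
    Finset.single_le_sum (f := fun r => max (-γ r) 0 * m t r.1) (hterm_nonneg t) hr
  have hQpos : ∀ t, 0 < Q t := by
    intro t
    refine lt_of_lt_of_le ?_ (hQge t r0 hr0)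
    have : 0 < max (-γ r0) 0 := lt_max_of_lt_left (by linarith)
    exact mul_pos this (hmpos t _)
  -- each ascending term is eventually tiny compared with Q
  have hstep : ∀ r ∈ N.R, ∀ᶠ t in l, max (γ r) 0 * m t r.1 * c ≤ ε ^ 2 * Q t := by
    intro r hr
    by_cases hpos : 0 < γ r
    · obtain ⟨r', hr', hlt, hneg⟩ := hasc r hr hpos
      have h1 : Tendsto (fun t => hgt (b t) r.1 - hgt (b t) r'.1) l
          (𝓝 (hgt a r.1 - hgt a r'.1)) := (tendsto_hgt hb _).sub (tendsto_hgt hb _)
      have h2 : Tendsto (fun t => s t * (hgt (b t) r.1 - hgt (b t) r'.1)) l atBot :=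
        hs.atTop_mul_neg (by linarith) h1
      have h3 : Tendsto (fun t => Real.exp (s t * (hgt (b t) r.1 - hgt (b t) r'.1)) * (γ r * c))
          l (𝓝 (0 * (γ r * c))) := (Real.tendsto_exp_atBot.comp h2).mul_const _
      rw [zero_mul] at h3
      have hconst : 0 < ε ^ 2 * (-γ r') := by
        have : 0 < -γ r' := by linarith
        positivity
      filter_upwards [h3.eventually (gt_mem_nhds hconst)] with t ht
      have hsplit : m t r.1 = m t r'.1 * Real.exp (s t * (hgt (b t) r.1 - hgt (b t) r'.1)) := by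
        simp only [hm]
        rw [← Real.exp_add]
        congr 1
        ring
      have hmax : max (γ r) 0 = γ r := max_eq_left hpos.le
      have hmax' : max (-γ r') 0 = -γ r' := max_eq_left (by linarith)
      calc max (γ r) 0 * m t r.1 * c
          = m t r'.1 * (Real.exp (s t * (hgt (b t) r.1 - hgt (b t) r'.1)) * (γ r * c)) := by
            rw [hmax, hsplit]; ring
        _ ≤ m t r'.1 * (ε ^ 2 * (-γ r')) := by
            exact mul_le_mul_of_nonneg_left ht.le (hmpos t _).le
        _ = ε ^ 2 * (max (-γ r') 0 * m t r'.1) := by rw [hmax']; ring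
        _ ≤ ε ^ 2 * Q t := by
            exact mul_le_mul_of_nonneg_left (hQge t r' hr') (by positivity)
    · have hmax : max (γ r) 0 = 0 := max_eq_right (not_lt.1 hpos)
      refine Eventually.of_forall fun t => ?_
      rw [hmax]
      have := hQpos t
      simp only [zero_mul]
      positivity
  have hall := (eventually_all_finset N.R).2 hstep
  filter_upwards [hall] with t ht k hk
  rw [dot_field]
  have hmono : ∀ y, mono (fun j => Real.exp (s t * b t j)) y = m t y := by
    intro y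
    rw [mono_exp, hgt_smul]
  simp only [hmono]
  set P : ℝ := ∑ r ∈ N.R, max (γ r) 0 * m t r.1 with hP
  have hPc : P * c ≤ (N.R.card : ℝ) * (ε ^ 2 * Q t) := by
    rw [hP, Finset.sum_mul]
    have := Finset.sum_le_card_nsmul N.R (fun r => max (γ r) 0 * m t r.1 * c) (ε ^ 2 * Q t) ht
    simpa [nsmul_eq_mul] using this
  have hQt := hQpos t
  have hPlt : P < ε ^ 2 * Q t := by
    have h1 : (N.R.card : ℝ) * (ε ^ 2 * Q t) < c * (ε ^ 2 * Q t) := by
      have : 0 < ε ^ 2 * Q t := by positivity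
      have hcc : (N.R.card : ℝ) < c := by simp [hc]
      exact mul_lt_mul_of_pos_right hcc this
    have h2 : P * c < (ε ^ 2 * Q t) * c := by linarith
    exact lt_of_mul_lt_mul_right h2 hcpos.le
  have hbound : ∑ r ∈ N.R, k r * m t r.1 * (hgt a r.2 - hgt a r.1) ≤ ε⁻¹ * P - ε * Q t := by
    rw [hP, hQ]
    simp only [Finset.mul_sum]
    rw [← Finset.sum_sub_distrib]
    refine Finset.sum_le_sum fun r hr => ?_
    obtain ⟨hk1, hk2⟩ := hk r hr
    have hmr := hmpos t r.1
    change k r * m t r.1 * γ r ≤ _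
    rcases le_or_gt 0 (γ r) with hg | hg
    · rw [max_eq_left hg, max_eq_right (by linarith : -γ r ≤ 0)]
      have : 0 ≤ m t r.1 * γ r := mul_nonneg hmr.le hg
      nlinarith
    · rw [max_eq_right hg.le, max_eq_left (by linarith : 0 ≤ -γ r)]
      have : 0 < m t r.1 * (-γ r) := mul_pos hmr (by linarith)
      nlinarith
  have hfin : ε⁻¹ * P < ε * Q t := by
    have : ε⁻¹ * P < ε⁻¹ * (ε ^ 2 * Q t) := mul_lt_mul_of_pos_left hPlt (by positivity)
    have h2 : ε⁻¹ * (ε ^ 2 * Q t) = ε * Q t := by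
      field_simp
    linarith
  linarith

/-- If `a` is orthogonal to all reaction vectors, then it annihilates the field. -/
lemma dot_field_eq_zero (N : Network d) (k : Cplx d × Cplx d → ℝ) (a x : Fin d → ℝ)
    (h : ∀ r ∈ N.R, hgt a r.2 = hgt a r.1) : ∑ i, a i * N.field k x i = 0 := by
  rw [dot_field]
  refine Finset.sum_eq_zero fun r hr => ?_
  rw [h r hr, sub_self, mul_zero]

/-- If `a` is orthogonal to all reaction vectors, then it annihilates the stoichiometric subspace. -/
lemma dot_stoich_eq_zero (N : Network d) (a : Fin d → ℝ)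
    (h : ∀ r ∈ N.R, hgt a r.2 = hgt a r.1) {v : Fin d → ℝ} (hv : v ∈ N.stoich) :
    ∑ i, a i * v i = 0 := by
  unfold Network.stoich at hv
  induction hv using Submodule.span_induction with
  | mem x hx =>
    obtain ⟨r, hr, rfl⟩ := hx
    rw [dot_rvec, h r hr, sub_self]
  | zero => simp
  | add x y _ _ hx hy =>
    simp only [Pi.add_apply, mul_add, Finset.sum_add_distrib, hx, hy, add_zero]
  | smul t x _ hx =>
    have : ∑ i, a i * (t • x) i = t * ∑ i, a i * x i := by
      rw [Finset.mul_sum]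
      refine Finset.sum_congr rfl fun i _ => ?_
      simp only [Pi.smul_apply, smul_eq_mul]
      ring
    rw [this, hx, mul_zero]

/-- Key lemma B1: if `a` has a positive entry, `⟨a, exp (s b)⟩ → ∞`. -/
lemma tendsto_dot_exp_atTop {α : Type*} {l : Filter α} {s : α → ℝ} {b : α → Fin d → ℝ}
    {a : Fin d → ℝ} (hs : Tendsto s l atTop) (hb : Tendsto b l (𝓝 a))
    (hpos : ∃ i, 0 < a i) :
    Tendsto (fun t => ∑ i, a i * Real.exp (s t * b t i)) l atTop := by
  classical
  obtain ⟨i0, hi0⟩ := hpos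
  have hbi : ∀ i, Tendsto (fun t => b t i) l (𝓝 (a i)) := fun i => (tendsto_pi_nhds.1 hb) i
  have hlow : ∀ i ∈ (Finset.univ : Finset (Fin d)), ∀ᶠ t in l,
      (-1 : ℝ) ≤ a i * Real.exp (s t * b t i) := by
    intro i _
    rcases lt_or_ge (a i) 0 with h | h
    · have h2 : Tendsto (fun t => s t * b t i) l atBot := hs.atTop_mul_neg h (hbi i)
      have h3 : Tendsto (fun t => a i * Real.exp (s t * b t i)) l (𝓝 (a i * 0)) :=
        (Real.tendsto_exp_atBot.comp h2).const_mul _
      rw [mul_zero] at h3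
      filter_upwards [h3.eventually (lt_mem_nhds (by norm_num : (-1 : ℝ) < 0))] with t ht
      exact ht.le
    · refine Eventually.of_forall fun t => ?_
      have : 0 ≤ a i * Real.exp (s t * b t i) := mul_nonneg h (Real.exp_pos _).le
      linarith
  have hall := (eventually_all_finset _).2 hlow
  have hmain : Tendsto (fun t => a i0 * Real.exp (s t * b t i0) + (-(d : ℝ) - 1)) l atTop := by
    refine tendsto_atTop_add_const_right _ _ ?_
    have h2 : Tendsto (fun t => s t * b t i0) l atTop := hs.atTop_mul_pos hi0 (hbi i0)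
    exact (Real.tendsto_exp_atTop.comp h2).const_mul_atTop hi0
  refine tendsto_atTop_mono' l ?_ hmain
  filter_upwards [hall] with t ht
  have hsplit := Finset.add_sum_erase Finset.univ (fun i => a i * Real.exp (s t * b t i))
    (Finset.mem_univ i0)
  rw [← hsplit]
  have hrest : (-(d : ℝ) - 1) ≤ ∑ i ∈ Finset.univ.erase i0, a i * Real.exp (s t * b t i) := by
    have h1 := Finset.card_nsmul_le_sum (Finset.univ.erase i0)
      (fun i => a i * Real.exp (s t * b t i)) (-1) (fun i _ => ht i (Finset.mem_univ i))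
    have h2 : ((Finset.univ.erase i0).card : ℝ) ≤ d := by
      have := Finset.card_erase_le (s := (Finset.univ : Finset (Fin d))) (a := i0)
      simp only [Finset.card_univ, Fintype.card_fin] at this
      exact_mod_cast this
    simp only [nsmul_eq_mul] at h1
    linarith
  linarith

/-- Key lemma B2: if `a ≤ 0`, `⟨a, exp (s b)⟩ → 0`. -/
lemma tendsto_dot_exp_zero {α : Type*} {l : Filter α} {s : α → ℝ} {b : α → Fin d → ℝ}
    {a : Fin d → ℝ} (hs : Tendsto s l atTop) (hb : Tendsto b l (𝓝 a))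
    (hneg : ∀ i, a i ≤ 0) :
    Tendsto (fun t => ∑ i, a i * Real.exp (s t * b t i)) l (𝓝 0) := by
  have hbi : ∀ i, Tendsto (fun t => b t i) l (𝓝 (a i)) := fun i => (tendsto_pi_nhds.1 hb) i
  have : Tendsto (fun t => ∑ i, a i * Real.exp (s t * b t i)) l
      (𝓝 (∑ _i : Fin d, (0 : ℝ))) := by
    refine tendsto_finsetSum _ fun i _ => ?_
    rcases lt_or_eq_of_le (hneg i) with h | h
    · have h2 : Tendsto (fun t => s t * b t i) l atBot := hs.atTop_mul_neg h (hbi i)
      have h3 : Tendsto (fun t => a i * Real.exp (s t * b t i)) l (𝓝 (a i * 0)) :=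
        (Real.tendsto_exp_atBot.comp h2).const_mul _
      rwa [mul_zero] at h3
    · simp only [h, zero_mul]
      exact tendsto_const_nhds
  simpa using this

/-- If `a ≤ 0`, `a ≠ 0` and `x > 0` then `⟨a, x⟩ < 0`. -/
lemma dot_neg_of_nonpos {a x : Fin d → ℝ} (hneg : ∀ i, a i ≤ 0) (hne : a ≠ 0)
    (hx : ∀ i, 0 < x i) : ∑ i, a i * x i < 0 := by
  obtain ⟨i0, hi0⟩ : ∃ i, a i ≠ 0 := by
    by_contra h
    exact hne (funext fun i => by simpa using not_exists.1 h i)
  have hlt : a i0 < 0 := lt_of_le_of_ne (hneg i0) hi0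
  refine Finset.sum_neg' (fun i _ => ?_) ⟨i0, Finset.mem_univ _, ?_⟩
  · exact mul_nonpos_of_nonpos_of_nonneg (hneg i) (hx i).le
  · exact mul_neg_of_neg_of_pos hlt (hx i0)

end Vale.Agent.P072
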